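import Vale.Agent.P038h8.Good

namespace Vale.Agent.Results.P038.NonGoodMatching

open Vale.Agent.P038h8

/-- Let `r` be an oriented graph on a finite nonempty vertex set. Suppose that whenever `b` is
at out-distance more than two from `f`, at most one out-neighbour `a` of `f` forms a non-good
pair with `b`. Then some vertex has first out-neighbourhood no larger than its second
out-neighbourhood. The hypothesis holds in particular when the non-good pairs form a matching. -/
theorem result {V : Type*} [Fintype V] [Nonempty V] (r : V → V → Prop)
    (hr : ∀ x y, r x y → ¬ r y x)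
    (hG : ∀ f b, b ≠ f → ¬ r f b → (¬ ∃ u, r f u ∧ r u b) →
      ∀ a₁ a₂, r f a₁ → r f a₂ → NonGoodPair r a₁ b → NonGoodPair r a₂ b → a₁ = a₂) :
    ∃ v, (firstOut r v).card ≤ (secondOut r v).card :=
  exists_seymour_of_nonGood r hr hG

end Vale.Agent.Results.P038.NonGoodMatching
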